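import Vale.Agent.P134h3.Main

open Laplacian InnerProductSpace

namespace Vale.Agent.Results.P134.ATranslatedLevelSets

/-- Let `u : ℝⁿ → ℝ` solve `Δ u = u ^ 3 - u` with `|u| ≤ 1`, and suppose that
`u x = g (x ℓ + φ x)` with `g` of class `C²`, `g' > 0`, and `φ` of class `C³` not depending on the
coordinate `x ℓ`; so `∂u/∂x_ℓ > 0` and all level sets of `u` are translates in the direction `ℓ` of
one graph. Then `φ` is affine, so `u` is one-dimensional and its level sets are parallel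
hyperplanes. All dimensions `n` are allowed. -/
theorem result (n : ℕ) (ℓ : Fin n) (g : ℝ → ℝ) (φ : EuclideanSpace ℝ (Fin n) → ℝ)
    (hg : ContDiff ℝ 2 g) (hφ : ContDiff ℝ 3 φ)
    (hindep : ∀ (x : EuclideanSpace ℝ (Fin n)) (t : ℝ), φ (x + t • EuclideanSpace.single ℓ (1 : ℝ)) = φ x)
    (u : EuclideanSpace ℝ (Fin n) → ℝ) (hu : ∀ x, u x = g (x ℓ + φ x))
    (hmono : ∀ t, 0 < deriv g t) (hbd : ∀ x, |u x| ≤ 1)
    (heq : ∀ x, Δ u x = u x ^ 3 - u x) :
    ∃ (p : EuclideanSpace ℝ (Fin n) →L[ℝ] ℝ) (q : ℝ), ∀ x, φ x = p x + q := by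
  have hfun : u = fun x => g (x ℓ + φ x) := funext hu
  subst hfun
  exact Vale.Agent.P134h3.translated_levelsets ℓ hg hφ hindep hmono hbd heq

end Vale.Agent.Results.P134.ATranslatedLevelSets
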