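import Vale.Agent.P100h3.Core

open Laplacian InnerProductSpace Filter Topology

namespace Vale.Agent.Results.P134.AdditivelySeparable

variable {n : ℕ}

/-- The Laplacian of a separable function, from second derivatives along the coordinate lines. -/
theorem lap_sep {f : Fin n → ℝ → ℝ} (hf : ∀ k, ContDiff ℝ 2 (f k)) (x : EuclideanSpace ℝ (Fin n)) :
    Δ (fun y : EuclideanSpace ℝ (Fin n) => ∑ k, f k (y k)) x = ∑ k, deriv (deriv (f k)) (x k) := by
  have hproj : ∀ k, ContDiff ℝ 2 (fun y : EuclideanSpace ℝ (Fin n) => f k (y k)) := fun k =>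
    (hf k).comp (EuclideanSpace.proj k : EuclideanSpace ℝ (Fin n) →L[ℝ] ℝ).contDiff
  have hu : ContDiffAt ℝ 2 (fun y : EuclideanSpace ℝ (Fin n) => ∑ k, f k (y k)) x :=
    (ContDiff.sum fun k _ => hproj k).contDiffAt
  rw [Vale.Agent.P100h3.lap_eq_sum (EuclideanSpace.basisFun (Fin n) ℝ) hu]
  refine Finset.sum_congr rfl fun i _ => ?_
  have hline : (fun t : ℝ => ∑ k, f k ((x + t • EuclideanSpace.basisFun (Fin n) ℝ i) k)) =
      fun t => f i (x i + t) + ∑ k ∈ Finset.univ.erase i, f k (x k) := by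
    funext t
    rw [← Finset.add_sum_erase _ _ (Finset.mem_univ i)]
    congr 1
    · simp
    · refine Finset.sum_congr rfl fun k hk => ?_
      have hne : k ≠ i := Finset.ne_of_mem_erase hk
      simp [hne]
  rw [hline]
  have hd1 : Differentiable ℝ (f i) := (hf i).differentiable (by norm_num)
  have h1 : deriv (fun t : ℝ => f i (x i + t) + ∑ k ∈ Finset.univ.erase i, f k (x k)) =
      fun t => deriv (f i) (x i + t) := by
    funext t
    exact ((HasDerivAt.comp_const_add (x i) t (hd1 (x i + t)).hasDerivAt).add_const _).deriv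
  rw [h1]
  have h2 : ContDiff ℝ 1 (deriv (f i)) := by
    have : ContDiff ℝ (1 + 1) (f i) := by
      have h3 : (1 + 1 : WithTop ℕ∞) = 2 := by norm_num
      rw [h3]; exact hf i
    exact (contDiff_succ_iff_deriv.mp this).2.2
  have hd2 : Differentiable ℝ (deriv (f i)) := h2.differentiable (by norm_num)
  have h4 := (HasDerivAt.comp_const_add (x i) 0 (hd2 (x i + 0)).hasDerivAt).deriv
  simpa using h4

/-- Additively separable solutions of the Allen-Cahn equation that are monotone in one coordinate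
are one-dimensional: if `u x = ∑ k, f k (x k)` with `f k` of class `C²`, `|u| ≤ 1` is not even
needed, `f ℓ` is strictly increasing and `Δ u = u ^ 3 - u` on `ℝⁿ`, then `f k` is constant for
every `k ≠ ℓ`. -/
theorem result (n : ℕ) (ℓ : Fin n) (f : Fin n → ℝ → ℝ) (hf : ∀ k, ContDiff ℝ 2 (f k))
    (u : EuclideanSpace ℝ (Fin n) → ℝ) (hu : ∀ x, u x = ∑ k, f k (x k))
    (hmono : ∀ t, 0 < deriv (f ℓ) t)
    (heq : ∀ x, Δ u x = u x ^ 3 - u x) :
    ∀ k, k ≠ ℓ → ∀ a b, f k a = f k b := by
  have hfun : u = fun y : EuclideanSpace ℝ (Fin n) => ∑ k, f k (y k) := funext hu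
  subst hfun
  have hstrict : StrictMono (f ℓ) := strictMono_of_deriv_pos hmono
  intro i hi a b
  by_contra hab
  -- the points with `i`-th coordinate `s`, `ℓ`-th coordinate `t`, other coordinates zero
  let pt : ℝ → ℝ → EuclideanSpace ℝ (Fin n) := fun s t =>
    EuclideanSpace.single i s + EuclideanSpace.single ℓ t
  have hci : ∀ s t, pt s t i = s := by
    intro s t
    simp [pt, hi]
  have hcl : ∀ s t, pt s t ℓ = t := by
    intro s t
    have : ℓ ≠ i := fun h => hi h.symm
    simp [pt, this]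
  have hco : ∀ s t k, k ≠ i → k ≠ ℓ → pt s t k = 0 := by
    intro s t k h1 h2
    simp [pt, h1, h2]
  obtain ⟨c, hc⟩ : ∃ c, c = ∑ k ∈ (Finset.univ.erase i).erase ℓ, f k 0 := ⟨_, rfl⟩
  obtain ⟨c₂, hc₂⟩ : ∃ c₂, c₂ = ∑ k ∈ (Finset.univ.erase i).erase ℓ, deriv (deriv (f k)) 0 := ⟨_, rfl⟩
  have hmemℓ : ℓ ∈ Finset.univ.erase i := Finset.mem_erase.mpr ⟨fun h => hi h.symm, Finset.mem_univ ℓ⟩
  have hsum : ∀ (g : Fin n → ℝ → ℝ) (s t : ℝ), ∑ k, g k (pt s t k) =
      g i s + (g ℓ t + ∑ k ∈ (Finset.univ.erase i).erase ℓ, g k 0) := by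
    intro g s t
    rw [← Finset.add_sum_erase _ _ (Finset.mem_univ i), ← Finset.add_sum_erase _ _ hmemℓ, hci, hcl]
    congr 2
    refine Finset.sum_congr rfl fun k hk => ?_
    have h1 : k ≠ ℓ := Finset.ne_of_mem_erase hk
    have h2 : k ≠ i := Finset.ne_of_mem_erase (Finset.mem_of_mem_erase hk)
    rw [hco s t k h2 h1]
  have hfe : ∀ s t, deriv (deriv (f i)) s + (deriv (deriv (f ℓ)) t + c₂) =
      (f i s + (f ℓ t + c)) ^ 3 - (f i s + (f ℓ t + c)) := by
    intro s t
    have h1 := heq (pt s t)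
    beta_reduce at h1
    rw [lap_sep hf, hsum (fun k => deriv (deriv (f k))) s t, hsum f s t, ← hc, ← hc₂] at h1
    exact h1
  -- the mixed difference
  have hkey : ∀ t t', (f ℓ t + c - (f ℓ t' + c)) *
      (f ℓ t + c + (f ℓ t' + c) + f i a + f i b) = 0 := by
    intro t t'
    have h1 := hfe a t
    have h2 := hfe b t
    have h3 := hfe a t'
    have h4 := hfe b t'
    have h5 : (f i a - f i b) * (3 * ((f ℓ t + c - (f ℓ t' + c)) *
        (f ℓ t + c + (f ℓ t' + c) + f i a + f i b))) = 0 := by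
      linear_combination h2 - h1 + h3 - h4
    have h6 : f i a - f i b ≠ 0 := sub_ne_zero.mpr hab
    have h7 := (mul_eq_zero.mp h5).resolve_left h6
    linarith
  have hne : ∀ t t' : ℝ, t ≠ t' → f ℓ t + c - (f ℓ t' + c) ≠ 0 := by
    intro t t' htt h
    have : f ℓ t = f ℓ t' := by linarith
    exact htt (hstrict.injective this)
  have h12 := (mul_eq_zero.mp (hkey 0 1)).resolve_left (hne 0 1 (by norm_num))
  have h13 := (mul_eq_zero.mp (hkey 0 2)).resolve_left (hne 0 2 (by norm_num))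
  have : f ℓ 1 = f ℓ 2 := by linarith
  have h := hstrict.injective this
  norm_num at h

end Vale.Agent.Results.P134.AdditivelySeparable
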